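import Vale.Agent.Lib.P074.Counter
import Vale.Agent.Lib.P074.Third

open MeasureTheory Set
open scoped ENNReal NNReal

namespace Vale.Agent.Results.P074.AdmissibleIff

open Vale.Agent.Lib.P074

private lemma W2_le_of_bound {d : ℕ} (Y : Set (E d)) (R : ℝ≥0)
    (hR : ∀ y ∈ Y, ∀ z ∈ Y, ‖y - z‖ₑ ≤ R)
    (μ ν : Measure (E d)) [IsProbabilityMeasure μ] [IsProbabilityMeasure ν]
    (hμ : μ Yᶜ = 0) (hν : ν Yᶜ = 0) : W2 μ ν ≤ R := by
  have hmarg : (μ.prod ν).map Prod.fst = μ ∧ (μ.prod ν).map Prod.snd = ν := by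
    constructor
    · rw [Measure.map_fst_prod]; simp
    · rw [Measure.map_snd_prod]; simp
  have h1 : (⨅ π : Measure (E d × E d), ⨅ _ : π.map Prod.fst = μ ∧ π.map Prod.snd = ν,
      ∫⁻ p, ‖p.1 - p.2‖ₑ ^ 2 ∂π) ≤ ∫⁻ p, ‖p.1 - p.2‖ₑ ^ 2 ∂(μ.prod ν) :=
    iInf₂_le (μ.prod ν) hmarg
  have hae : ∀ᵐ p ∂(μ.prod ν), p.1 ∈ Y ∧ p.2 ∈ Y := by
    have hnull : (μ.prod ν) ((Yᶜ ×ˢ univ) ∪ (univ ×ˢ Yᶜ)) = 0 := by
      refine measure_union_null ?_ ?_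
      · rw [Measure.prod_prod, hμ, zero_mul]
      · rw [Measure.prod_prod, hν, mul_zero]
    rw [ae_iff]
    refine measure_mono_null ?_ hnull
    intro p hp
    simp only [Set.mem_ofPred_eq, not_and_or] at hp
    rcases hp with hp | hp
    · exact Or.inl ⟨hp, mem_univ _⟩
    · exact Or.inr ⟨mem_univ _, hp⟩
  have h2 : ∫⁻ p, ‖p.1 - p.2‖ₑ ^ 2 ∂(μ.prod ν) ≤ ∫⁻ _p, (R : ℝ≥0∞) ^ 2 ∂(μ.prod ν) := by
    refine lintegral_mono_ae ?_
    filter_upwards [hae] with p hp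
    exact pow_le_pow_left₀ zero_le (hR _ hp.1 _ hp.2) 2
  have h3 : ∫⁻ _p, (R : ℝ≥0∞) ^ 2 ∂(μ.prod ν) = (R : ℝ≥0∞) ^ 2 := by
    simp
  unfold W2
  calc _ ≤ ((R : ℝ≥0∞) ^ 2) ^ (1 / 2 : ℝ) :=
        ENNReal.rpow_le_rpow (h1.trans (h2.trans h3.le)) (by norm_num)
    _ = R := by
        rw [← ENNReal.rpow_natCast, ← ENNReal.rpow_mul]
        norm_num

private lemma admissible_mono {d : ℕ} {α β : ℝ} (hα : 0 ≤ α) (hαβ : α ≤ β)
    (h : Admissible d β) : Admissible d α := by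
  intro K hK hconv hint Y hY hYne
  obtain ⟨C, hC⟩ := h K hK hconv hint Y hY hYne
  obtain ⟨R0, hR0⟩ := Metric.isBounded_iff.mp hY.isBounded
  set R : ℝ≥0 := Real.toNNReal R0 with hRdef
  have hR : ∀ y ∈ Y, ∀ z ∈ Y, ‖y - z‖ₑ ≤ R := by
    intro y hy z hz
    have h1 : dist y z ≤ R0 := hR0 hy hz
    rw [← edist_eq_enorm_sub, edist_dist]
    rw [hRdef]
    exact ENNReal.ofReal_le_ofReal h1
  refine ⟨C * R ^ (β - α), ?_⟩
  intro μ ν hμp hνp hμ hν T S hT hS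
  have hW : W2 μ ν ≤ R := W2_le_of_bound Y R hR μ ν hμ hν
  have h1 := hC μ ν hμp hνp hμ hν T S hT hS
  refine h1.trans ?_
  have hsplit : W2 μ ν ^ β = W2 μ ν ^ α * W2 μ ν ^ (β - α) := by
    rw [← ENNReal.rpow_add_of_nonneg _ _ hα (by linarith)]
    congr 1
    ring
  rw [hsplit, ENNReal.coe_mul, ENNReal.coe_rpow_of_nonneg _ (by linarith : 0 ≤ β - α)]
  have h2 : W2 μ ν ^ (β - α) ≤ (R : ℝ≥0∞) ^ (β - α) :=
    ENNReal.rpow_le_rpow hW (by linarith)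
  calc (C : ℝ≥0∞) * (W2 μ ν ^ α * W2 μ ν ^ (β - α))
      ≤ (C : ℝ≥0∞) * (W2 μ ν ^ α * (R : ℝ≥0∞) ^ (β - α)) := by gcongr
    _ = (C : ℝ≥0∞) * (R : ℝ≥0∞) ^ (β - α) * W2 μ ν ^ α := by ring

/-- In every dimension `d ≥ 2` a positive exponent `α` is admissible if and only if `α ≤ 1/3`:
the set of admissible exponents in `(0, 1]` is exactly the interval `(0, 1/3]`. -/
theorem result : ∀ d : ℕ, 2 ≤ d →
    (∀ α : ℝ, 0 < α → (Admissible d α ↔ α ≤ 1 / 3)) ∧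
      {α : ℝ | 0 < α ∧ α ≤ 1 ∧ Admissible d α} = Set.Ioc 0 (1 / 3) := by
  intro d hd
  have key : ∀ α : ℝ, 0 < α → (Admissible d α ↔ α ≤ 1 / 3) := by
    intro α hα
    constructor
    · intro h
      by_contra hlt
      exact not_admissible (⟨0, by omega⟩ : Fin d) ⟨1, by omega⟩ (by simp [Fin.ext_iff]) α
        (not_le.mp hlt) h
    · intro h
      exact admissible_mono hα.le h (admissible_third d)
  refine ⟨key, ?_⟩
  ext α
  constructor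
  · rintro ⟨h0, _, h2⟩
    exact ⟨h0, (key α h0).mp h2⟩
  · rintro ⟨h0, h1⟩
    exact ⟨h0, by linarith, (key α h0).mpr h1⟩

end Vale.Agent.Results.P074.AdmissibleIff
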