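import Vale.Agent.Lib.P074.Final

open MeasureTheory Set
open scoped ENNReal NNReal

namespace Vale.Agent.Results.P074.LowerQuarter

open Vale.Agent.Lib.P074

/-- In every dimension the exponent `1/4` is admissible, so the supremum of the admissible
exponents is at least `1/4`. -/
theorem result : ∀ d : ℕ,
    Admissible d (1 / 4) ∧ 1 / 4 ≤ sSup {α : ℝ | 0 < α ∧ α ≤ 1 ∧ Admissible d α} := by
  intro d
  refine ⟨admissible_quarter d, ?_⟩
  exact le_csSup ⟨1, fun α hα => hα.2.1⟩ ⟨by norm_num, by norm_num, admissible_quarter d⟩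

end Vale.Agent.Results.P074.LowerQuarter
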