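import Vale.Agent.Lib.P074.Counter
import Vale.Agent.Lib.P074.Third

open MeasureTheory Set
open scoped ENNReal NNReal

namespace Vale.Agent.Results.P074.SharpThird

open Vale.Agent.Lib.P074

/-- In every dimension `d ≥ 2` the exponent `1/3` is admissible and no larger exponent is:
the supremum of the admissible exponents equals `1/3` and it is attained; in particular
`1/2` is not admissible. -/
theorem result : ∀ d : ℕ, 2 ≤ d →
    Admissible d (1 / 3) ∧ (∀ α : ℝ, 1 / 3 < α → ¬ Admissible d α) ∧ ¬ Admissible d (1 / 2) ∧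
      IsGreatest {α : ℝ | 0 < α ∧ α ≤ 1 ∧ Admissible d α} (1 / 3) ∧
      sSup {α : ℝ | 0 < α ∧ α ≤ 1 ∧ Admissible d α} = 1 / 3 := by
  intro d hd
  have key : ∀ α : ℝ, 1 / 3 < α → ¬ Admissible d α := fun α hα =>
    not_admissible (⟨0, by omega⟩ : Fin d) ⟨1, by omega⟩ (by simp [Fin.ext_iff]) α hα
  have hg : IsGreatest {α : ℝ | 0 < α ∧ α ≤ 1 ∧ Admissible d α} (1 / 3) := by
    refine ⟨⟨by norm_num, by norm_num, admissible_third d⟩, fun α hα => ?_⟩
    by_contra hlt
    exact key α (not_le.mp hlt) hα.2.2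
  exact ⟨admissible_third d, key, key _ (by norm_num), hg, hg.csSup_eq⟩

end Vale.Agent.Results.P074.SharpThird
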