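import Vale.Agent.Lib.P074.Counter
import Vale.Agent.Lib.P074.Final

open MeasureTheory Set
open scoped ENNReal NNReal

namespace Vale.Agent.Results.P074.TwoSided

open Vale.Agent.Lib.P074

/-- In every dimension `d ≥ 2` the exponent `1/4` is admissible, no exponent above `1/3` is
admissible (in particular `1/2` is not), and the supremum of the admissible exponents lies
in `[1/4, 1/3]`. -/
theorem result : ∀ d : ℕ, 2 ≤ d →
    Admissible d (1 / 4) ∧ (∀ α : ℝ, 1 / 3 < α → ¬ Admissible d α) ∧ ¬ Admissible d (1 / 2) ∧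
      1 / 4 ≤ sSup {α : ℝ | 0 < α ∧ α ≤ 1 ∧ Admissible d α} ∧
      sSup {α : ℝ | 0 < α ∧ α ≤ 1 ∧ Admissible d α} ≤ 1 / 3 := by
  intro d hd
  have key : ∀ α : ℝ, 1 / 3 < α → ¬ Admissible d α := fun α hα =>
    not_admissible (⟨0, by omega⟩ : Fin d) ⟨1, by omega⟩ (by simp [Fin.ext_iff]) α hα
  refine ⟨admissible_quarter d, key, key _ (by norm_num), ?_, ?_⟩
  · refine le_csSup ⟨1, fun α hα => hα.2.1⟩ ⟨by norm_num, by norm_num, admissible_quarter d⟩
  · refine Real.sSup_le (fun α hα => ?_) (by norm_num)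
    by_contra hlt
    exact key α (not_le.mp hlt) hα.2.2

end Vale.Agent.Results.P074.TwoSided
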