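import Vale.Agent.Lib.P074.Counter

open MeasureTheory Set
open scoped ENNReal NNReal

namespace Vale.Agent.Results.P074.UpperThird

open Vale.Agent.Lib.P074

/-- In every dimension `d ≥ 2` no exponent above `1/3` is admissible; in particular the
exponent `1/2` is not admissible, and the supremum of the admissible exponents is at most `1/3`. -/
theorem result : ∀ d : ℕ, 2 ≤ d →
    (∀ α : ℝ, 1 / 3 < α → ¬ Admissible d α) ∧ ¬ Admissible d (1 / 2) ∧
      sSup {α : ℝ | 0 < α ∧ α ≤ 1 ∧ Admissible d α} ≤ 1 / 3 := by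
  intro d hd
  have key : ∀ α : ℝ, 1 / 3 < α → ¬ Admissible d α := fun α hα =>
    not_admissible (⟨0, by omega⟩ : Fin d) ⟨1, by omega⟩ (by simp [Fin.ext_iff]) α hα
  refine ⟨key, key _ (by norm_num), ?_⟩
  refine Real.sSup_le (fun α hα => ?_) (by norm_num)
  by_contra hlt
  exact key α (not_le.mp hlt) hα.2.2

end Vale.Agent.Results.P074.UpperThird
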